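import Mathlib

namespace Vale.Agent.Results.P002.AbelianPi1

open Matrix

/-- `z` lies in the ring `ℤ[√2]`, the ring of integers of the number field `ℚ(√2) ⊂ ℂ`. -/
def IsZsqrt2 (z : ℂ) : Prop :=
  ∃ a b : ℤ, z = (a : ℂ) + (b : ℂ) * ((Real.sqrt 2 : ℝ) : ℂ)

/-- Value of a polynomial in the `n * r * r` matrix entries at an `n`-tuple of `r × r` matrices. -/
noncomputable def evalAt {n r : ℕ} (A : Fin n → Matrix (Fin r) (Fin r) ℂ)
    (f : MvPolynomial (Fin n × Fin r × Fin r) ℂ) : ℂ :=
  MvPolynomial.eval (fun p => A p.1 p.2.1 p.2.2) f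

/-- The `n`-tuple `A` is simultaneously diagonalisable: one change of basis makes every
`A i` diagonal.  Such tuples with determinant one are exactly the semisimple representations
`ℤ^n → SL_r(ℂ)` (direct sums of characters). -/
def SimDiag {n r : ℕ} (A : Fin n → Matrix (Fin r) (Fin r) ℂ) : Prop :=
  ∃ P Q : Matrix (Fin r) (Fin r) ℂ, P * Q = 1 ∧
    ∀ i, ∃ d : Fin r → ℂ, A i = P * Matrix.diagonal d * Q

/-- The polynomial `f` is invariant under simultaneous conjugation of the tuple. -/
def ConjInvariant {n r : ℕ} (f : MvPolynomial (Fin n × Fin r × Fin r) ℂ) : Prop :=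
  ∀ P Q : Matrix (Fin r) (Fin r) ℂ, P * Q = 1 →
    ∀ A : Fin n → Matrix (Fin r) (Fin r) ℂ, evalAt (fun i => P * A i * Q) f = evalAt A f

/-! ### Auxiliary lemmas -/

theorem isZsqrt2_mul {x y : ℂ} (hx : IsZsqrt2 x) (hy : IsZsqrt2 y) : IsZsqrt2 (x * y) := by
  obtain ⟨a, b, rfl⟩ := hx
  obtain ⟨c, d, rfl⟩ := hy
  refine ⟨a * c + 2 * b * d, a * d + b * c, ?_⟩
  have h2 : ((Real.sqrt 2 : ℝ) : ℂ) * ((Real.sqrt 2 : ℝ) : ℂ) = 2 := by
    rw [← Complex.ofReal_mul, Real.mul_self_sqrt (by norm_num)]
    norm_num
  push_cast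
  linear_combination ((b : ℂ) * d) * h2

theorem isZsqrt2_zero : IsZsqrt2 0 := ⟨0, 0, by simp⟩

theorem isZsqrt2_one : IsZsqrt2 1 := ⟨1, 0, by simp⟩

/-- The units of `ℤ[√2]`. -/
def unitSet : Set ℂ := {z | IsZsqrt2 z ∧ ∃ w, IsZsqrt2 w ∧ z * w = 1}

theorem unitSet_ne_zero {z : ℂ} (hz : z ∈ unitSet) : z ≠ 0 := by
  obtain ⟨_, w, _, hw⟩ := hz
  rintro rfl
  simp at hw

theorem unitSet_one : (1 : ℂ) ∈ unitSet := ⟨isZsqrt2_one, 1, isZsqrt2_one, by simp⟩

theorem unitSet_mul {x y : ℂ} (hx : x ∈ unitSet) (hy : y ∈ unitSet) : x * y ∈ unitSet := by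
  obtain ⟨hx1, w, hw, hxw⟩ := hx
  obtain ⟨hy1, v, hv, hyv⟩ := hy
  refine ⟨isZsqrt2_mul hx1 hy1, w * v, isZsqrt2_mul hw hv, ?_⟩
  calc x * y * (w * v) = (x * w) * (y * v) := by ring
    _ = 1 := by rw [hxw, hyv, one_mul]

theorem unitSet_inv {x : ℂ} (hx : x ∈ unitSet) : x⁻¹ ∈ unitSet := by
  obtain ⟨hx1, w, hw, hxw⟩ := hx
  have hx0 : x ≠ 0 := by
    rintro rfl
    simp at hxw
  have : x⁻¹ = w := by
    field_simp
    linear_combination -hxw
  rw [this]
  exact ⟨hw, x, hx1, by rw [mul_comm]; exact hxw⟩

theorem unitSet_prod {ι : Type*} (s : Finset ι) (g : ι → ℂ) (h : ∀ i ∈ s, g i ∈ unitSet) :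
    ∏ i ∈ s, g i ∈ unitSet := by
  classical
  induction s using Finset.induction_on with
  | empty => simpa using unitSet_one
  | insert a s ha ih =>
    rw [Finset.prod_insert ha]
    exact unitSet_mul (h a (Finset.mem_insert_self a s))
      (ih (fun i hi => h i (Finset.mem_insert_of_mem hi)))

theorem unitSet_infinite : unitSet.Infinite := by
  have hu : (1 + ((Real.sqrt 2 : ℝ) : ℂ)) ∈ unitSet := by
    refine ⟨⟨1, 1, by simp⟩, -1 + ((Real.sqrt 2 : ℝ) : ℂ), ⟨-1, 1, by simp⟩, ?_⟩
    have h2 : ((Real.sqrt 2 : ℝ) : ℂ) * ((Real.sqrt 2 : ℝ) : ℂ) = 2 := by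
      rw [← Complex.ofReal_mul, Real.mul_self_sqrt (by norm_num)]
      norm_num
    linear_combination h2
  have hpow : ∀ k : ℕ, (1 + ((Real.sqrt 2 : ℝ) : ℂ)) ^ k ∈ unitSet := by
    intro k
    induction k with
    | zero => simpa using unitSet_one
    | succ k ih => rw [pow_succ]; exact unitSet_mul ih hu
  have hinj : Function.Injective (fun k : ℕ => (1 + ((Real.sqrt 2 : ℝ) : ℂ)) ^ k) := by
    intro k l hkl
    have h1 : ((1 + Real.sqrt 2 : ℝ) : ℂ) ^ k = ((1 + Real.sqrt 2 : ℝ) : ℂ) ^ l := by
      push_cast
      exact hkl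
    have h2 : (1 + Real.sqrt 2 : ℝ) ^ k = (1 + Real.sqrt 2 : ℝ) ^ l := by
      exact_mod_cast h1
    have h3 : (1 : ℝ) < 1 + Real.sqrt 2 := by
      have : 0 < Real.sqrt 2 := Real.sqrt_pos.mpr (by norm_num)
      linarith
    exact pow_right_injective₀ (by linarith) (ne_of_gt h3) h2
  exact Set.infinite_of_injective_forall_mem hinj hpow

/-- Clearing denominators of a one-parameter Laurent substitution. -/
theorem laurent_poly {σ : Type*} (α β γ : σ → ℂ) (f : MvPolynomial σ ℂ) :
    ∃ (N : ℕ) (Q : Polynomial ℂ), ∀ t : ℂ, t ≠ 0 →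
      t ^ N * MvPolynomial.eval (fun p => α p + β p * t + γ p * t⁻¹) f = Q.eval t := by
  induction f using MvPolynomial.induction_on with
  | C a =>
    refine ⟨0, Polynomial.C a, fun t _ => ?_⟩
    simp
  | add f g hf hg =>
    obtain ⟨N, Q, hQ⟩ := hf
    obtain ⟨M, R, hR⟩ := hg
    refine ⟨N + M, Polynomial.X ^ M * Q + Polynomial.X ^ N * R, fun t ht => ?_⟩
    simp only [map_add, Polynomial.eval_add, Polynomial.eval_mul, Polynomial.eval_pow,
      Polynomial.eval_X]
    rw [← hQ t ht, ← hR t ht]
    ring
  | mul_X f p hf =>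
    obtain ⟨N, Q, hQ⟩ := hf
    refine ⟨N + 1, Q * (Polynomial.C (α p) * Polynomial.X + Polynomial.C (β p) * Polynomial.X ^ 2
      + Polynomial.C (γ p)), fun t ht => ?_⟩
    simp only [map_mul, MvPolynomial.eval_X, Polynomial.eval_add, Polynomial.eval_mul,
      Polynomial.eval_pow, Polynomial.eval_X, Polynomial.eval_C]
    rw [← hQ t ht]
    generalize MvPolynomial.eval (fun p => α p + β p * t + γ p * t⁻¹) f = e
    have h1 : t * t⁻¹ = 1 := mul_inv_cancel₀ ht
    linear_combination (t ^ N * e * γ p) * h1

/-- A one-parameter Laurent substitution vanishing on an infinite set vanishes on `ℂ \ {0}`. -/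
theorem laurent_vanish {σ : Type*} (α β γ : σ → ℂ) (f : MvPolynomial σ ℂ) (U : Set ℂ)
    (hU : U.Infinite)
    (h : ∀ t ∈ U, MvPolynomial.eval (fun p => α p + β p * t + γ p * t⁻¹) f = 0) :
    ∀ t : ℂ, t ≠ 0 → MvPolynomial.eval (fun p => α p + β p * t + γ p * t⁻¹) f = 0 := by
  obtain ⟨N, Q, hQ⟩ := laurent_poly α β γ f
  have hQ0 : Q = 0 := by
    apply Polynomial.eq_zero_of_infinite_isRoot
    apply Set.Infinite.mono _ (hU.sdiff (Set.finite_singleton (0 : ℂ)))
    intro t ht
    have ht0 : t ≠ 0 := by
      intro h0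
      exact ht.2 (by simp [h0])
    show Q.IsRoot t
    rw [Polynomial.IsRoot, ← hQ t ht0, h t ht.1, mul_zero]
  intro t ht
  have := hQ t ht
  rw [hQ0, Polynomial.eval_zero] at this
  rcases mul_eq_zero.mp this with h1 | h1
  · exact absurd (pow_ne_zero N ht) (not_not.mpr h1)
  · exact h1

theorem laurent_vanish' {σ : Type*} (x : ℂ → σ → ℂ)
    (hx : ∀ p, ∃ a b c : ℂ, ∀ t, x t p = a + b * t + c * t⁻¹)
    (f : MvPolynomial σ ℂ) (U : Set ℂ) (hU : U.Infinite)
    (h : ∀ t ∈ U, MvPolynomial.eval (x t) f = 0) :
    ∀ t : ℂ, t ≠ 0 → MvPolynomial.eval (x t) f = 0 := by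
  choose α β γ hαβγ using hx
  have hx' : ∀ t, x t = fun p => α p + β p * t + γ p * t⁻¹ := fun t => funext fun p => hαβγ p t
  intro t ht
  rw [hx']
  exact laurent_vanish α β γ f U hU (fun t ht => by rw [← hx']; exact h t ht) t ht

theorem prod_update_two {r : ℕ} (g : Fin r → ℂ) (j0 j1 : Fin r) (h : j1 ≠ j0) (a b : ℂ) :
    ∏ j, Function.update (Function.update g j1 a) j0 b j
      = b * (a * ∏ j ∈ (Finset.univ.erase j0).erase j1, g j) := by
  rw [Finset.prod_update_of_mem (Finset.mem_univ j0), Finset.sdiff_singleton_eq_erase,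
    Finset.prod_update_of_mem (Finset.mem_erase.mpr ⟨h, Finset.mem_univ j1⟩),
    Finset.sdiff_singleton_eq_erase]

theorem prod_split_two {r : ℕ} (g : Fin r → ℂ) (j0 j1 : Fin r) (h : j1 ≠ j0) :
    ∏ j, g j = g j0 * (g j1 * ∏ j ∈ (Finset.univ.erase j0).erase j1, g j) := by
  rw [Finset.mul_prod_erase _ _ (Finset.mem_erase.mpr ⟨h, Finset.mem_univ j1⟩),
    Finset.mul_prod_erase _ _ (Finset.mem_univ j0)]

theorem diag_vanish (n r : ℕ) (f : MvPolynomial (Fin n × Fin r × Fin r) ℂ)
    (hvan : ∀ d : Fin n → Fin r → ℂ, (∀ i, ∏ j, d i j = 1) → (∀ i j, d i j ∈ unitSet) →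
       evalAt (fun i => Matrix.diagonal (d i)) f = 0) :
    ∀ d : Fin n → Fin r → ℂ, (∀ i, ∏ j, d i j = 1) →
      evalAt (fun i => Matrix.diagonal (d i)) f = 0 := by
  rcases Nat.eq_zero_or_pos r with hr | hr
  · subst hr
    intro d hd
    exact hvan d hd (fun i j => j.elim0)
  · set j0 : Fin r := ⟨0, hr⟩ with hj0
    have key : ∀ S : Finset (Fin n × Fin r), ∀ d : Fin n → Fin r → ℂ, (∀ i, ∏ j, d i j = 1) →
        (∀ i j, j ≠ j0 → (i, j) ∉ S → d i j ∈ unitSet) →
        evalAt (fun i => Matrix.diagonal (d i)) f = 0 := by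
      intro S
      induction S using Finset.induction_on with
      | empty =>
        intro d hd hS
        apply hvan d hd
        intro i j
        by_cases hj : j = j0
        · subst hj
          have h1 : d i j0 * ∏ j ∈ Finset.univ.erase j0, d i j = 1 := by
            rw [Finset.mul_prod_erase _ _ (Finset.mem_univ j0)]; exact hd i
          have h2 : d i j0 = (∏ j ∈ Finset.univ.erase j0, d i j)⁻¹ :=
            eq_inv_of_mul_eq_one_left h1
          rw [h2]
          apply unitSet_inv
          apply unitSet_prod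
          intro j hj
          exact hS i j (Finset.ne_of_mem_erase hj) (Finset.notMem_empty _)
        · exact hS i j hj (Finset.notMem_empty _)
      | insert a S ha ih =>
        obtain ⟨i0, j1⟩ := a
        intro d hd hS
        by_cases hj1 : j1 = j0
        · apply ih d hd
          intro i j hj hij
          apply hS i j hj
          rw [Finset.mem_insert]
          rintro (h | h)
          · rw [Prod.mk.injEq] at h
            exact hj (h.2.trans hj1)
          · exact hij h
        · have hne : ∀ i j, d i j ≠ 0 := by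
            intro i j h0
            have := hd i
            rw [Finset.prod_eq_zero (Finset.mem_univ j) h0] at this
            exact zero_ne_one this
          have hprod : ∀ t : ℂ, t ≠ 0 → ∀ i, ∏ j, (Function.update d i0 (Function.update
              (Function.update (d i0) j1 t) j0 (d i0 j0 * d i0 j1 * t⁻¹))) i j = 1 := by
            intro t ht i
            by_cases hi : i = i0
            · subst hi
              rw [Function.update_self, prod_update_two _ _ _ hj1, ← hd i,
                prod_split_two (d i) j0 j1 hj1]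
              field_simp
            · rw [Function.update_of_ne hi]
              exact hd i
          have hU : ∀ t ∈ unitSet, MvPolynomial.eval (fun p : Fin n × Fin r × Fin r =>
              Matrix.diagonal ((Function.update d i0 (Function.update
              (Function.update (d i0) j1 t) j0 (d i0 j0 * d i0 j1 * t⁻¹))) p.1) p.2.1 p.2.2) f
                = 0 := by
            intro t ht
            apply ih _ (hprod t (unitSet_ne_zero ht))
            intro i j hj hij
            by_cases hi : i = i0
            · subst hi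
              rw [Function.update_self, Function.update_of_ne hj]
              by_cases hjj : j = j1
              · subst hjj
                rw [Function.update_self]
                exact ht
              · rw [Function.update_of_ne hjj]
                apply hS i j hj
                rw [Finset.mem_insert]
                rintro (h | h)
                · rw [Prod.mk.injEq] at h
                  exact hjj h.2
                · exact hij h
            · rw [Function.update_of_ne hi]
              apply hS i j hj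
              rw [Finset.mem_insert]
              rintro (h | h)
              · rw [Prod.mk.injEq] at h
                exact hi h.1
              · exact hij h
          have hall := laurent_vanish' (fun (t : ℂ) (p : Fin n × Fin r × Fin r) =>
              Matrix.diagonal ((Function.update d i0 (Function.update
              (Function.update (d i0) j1 t) j0 (d i0 j0 * d i0 j1 * t⁻¹))) p.1) p.2.1 p.2.2)
              (by
                rintro ⟨i, j, k⟩
                by_cases hjk : j = k
                · subst hjk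
                  by_cases hi : i = i0
                  · subst hi
                    by_cases hj : j = j0
                    · subst hj
                      exact ⟨0, 0, d i j0 * d i j1, fun t => by simp⟩
                    · by_cases hjj : j = j1
                      · subst hjj
                        exact ⟨0, 1, 0, fun t => by simp [Function.update_of_ne hj]⟩
                      · exact ⟨d i j, 0, 0, fun t => by
                          simp [Function.update_of_ne hj, Function.update_of_ne hjj]⟩
                  · exact ⟨d i j, 0, 0, fun t => by simp [Function.update_of_ne hi]⟩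
                · exact ⟨0, 0, 0, fun t => by simp [Matrix.diagonal_apply_ne _ hjk]⟩)
              f unitSet unitSet_infinite hU (d i0 j1) (hne i0 j1)
          have hd' : (Function.update d i0 (Function.update
              (Function.update (d i0) j1 (d i0 j1)) j0 (d i0 j0 * d i0 j1 * (d i0 j1)⁻¹))) = d := by
            rw [Function.update_eq_self, mul_assoc, mul_inv_cancel₀ (hne i0 j1), mul_one,
              Function.update_eq_self, Function.update_eq_self]
          simp only [hd'] at hall
          exact hall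
    intro d hd
    exact key Finset.univ d hd (fun i j _ h => absurd (Finset.mem_univ _) h)

theorem isZsqrt2_of_mem_unitSet {z : ℂ} (hz : z ∈ unitSet) : IsZsqrt2 z := hz.1

/-- Integral points are Zariski dense in the `SL_r` character variety of `ℤ^n`: a
conjugation-invariant polynomial in the matrix entries that vanishes at every simultaneously
diagonalisable `n`-tuple of determinant-one matrices with entries in `ℤ[√2]` vanishes at every
simultaneously diagonalisable `n`-tuple of determinant-one complex matrices. -/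
theorem result (n r : ℕ) (f : MvPolynomial (Fin n × Fin r × Fin r) ℂ) (hf : ConjInvariant f)
    (hvan : ∀ B : Fin n → Matrix (Fin r) (Fin r) ℂ, (∀ i, (B i).det = 1) →
      (∀ i j k, IsZsqrt2 (B i j k)) → SimDiag B → evalAt B f = 0) :
    ∀ A : Fin n → Matrix (Fin r) (Fin r) ℂ, (∀ i, (A i).det = 1) → SimDiag A →
      evalAt A f = 0 := by
  intro A hA hdiag
  obtain ⟨P, Q, hPQ, hd⟩ := hdiag
  choose d hd using hd
  have hQP : Q * P = 1 := mul_eq_one_comm.mp hPQ
  have hA' : A = fun i => P * Matrix.diagonal (d i) * Q := funext hd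
  have hdet : ∀ i, ∏ j, d i j = 1 := by
    intro i
    have h1 := hA i
    rw [hd i, Matrix.det_mul, Matrix.det_mul, Matrix.det_diagonal, mul_comm, ← mul_assoc,
      ← Matrix.det_mul, hQP, Matrix.det_one, one_mul] at h1
    exact h1
  rw [hA', hf P Q hPQ]
  apply diag_vanish n r f _ d hdet
  intro e he hu
  apply hvan _ _ _ ⟨1, 1, by simp, fun i => ⟨e i, by simp⟩⟩
  · intro i
    rw [Matrix.det_diagonal]
    exact he i
  · intro i j k
    by_cases hjk : j = k
    · subst hjk
      rw [Matrix.diagonal_apply_eq]
      exact (hu i j).1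
    · rw [Matrix.diagonal_apply_ne _ hjk]
      exact isZsqrt2_zero

end Vale.Agent.Results.P002.AbelianPi1
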