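import Mathlib
import Vale.Agent.Helper2.CharVar

namespace Vale.Agent.Results.P002.FreeTimesAbelian

open Vale.Agent.Helper2.CharVar

/-- Integral points are Zariski dense in the `SL_r` character variety of the group
`Γ = F_m × ∏_j ℤ/(q j)` (where `ℤ/0 = ℤ`), in every rank `r`, also under an arbitrary
conjugation-invariant condition `K` on the tuple of images of the torsion generators.

A polynomial `f` in the entries of `m + n` matrices of size `r × r` that is invariant under
simultaneous conjugation and vanishes at every representation `(A, B)` of `Γ` of the kind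
`IsRep q K` whose matrix entries all lie in the ring generated by `√2` and the `N`-th roots of
unity, `N = level r q = r! * ∏_{q j ≠ 0} q j`, vanishes at every complex representation of the
kind `IsRep q K`.  The kind `IsRep q K` (determinant one, `B j ^ q j = 1`, the tuple of the
`B j` with `q j ≠ 0` lies in `K`, `A i` commutes with `B j`, the `B j` are simultaneously
diagonalisable) contains every semisimple representation of `Γ` satisfying the condition `K`. -/
theorem result (m n r : ℕ) (q : Fin n → ℕ)
    (K : Set ({j : Fin n // q j ≠ 0} → Matrix (Fin r) (Fin r) ℂ))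
    (hK : ∀ P Q : Matrix (Fin r) (Fin r) ℂ, P * Q = 1 → ∀ T ∈ K, (fun j => P * T j * Q) ∈ K)
    (f : MvPolynomial ((Fin m ⊕ Fin n) × Fin r × Fin r) ℂ) (hf : ConjInvariant f)
    (hvan : ∀ (A : Fin m → Matrix (Fin r) (Fin r) ℂ) (B : Fin n → Matrix (Fin r) (Fin r) ℂ),
      IsRep q K A B → (∀ i a b, IsInt (level r q) (A i a b)) →
      (∀ j a b, IsInt (level r q) (B j a b)) → evalAt (Sum.elim A B) f = 0) :
    ∀ (A : Fin m → Matrix (Fin r) (Fin r) ℂ) (B : Fin n → Matrix (Fin r) (Fin r) ℂ),
      IsRep q K A B → evalAt (Sum.elim A B) f = 0 :=
  main m n r q K hK f hf hvan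

end Vale.Agent.Results.P002.FreeTimesAbelian
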