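import Mathlib
import Vale.Agent.Helper2.CharTwist

namespace Vale.Agent.Results.P002.NilpotentPi1

open Vale.Agent.Helper2.CharVar Vale.Agent.Helper2.CharTwist

/-- Integral points are Zariski dense in every family of character twists of integral
representations, also under a condition at elements on which the twisting characters are trivial.

`Γ` is any group, `v 0, ..., v (b-1) : Γ → ℤ` are homomorphisms with dual elements `h j`
(`v i (h j) = δ_ij`), `g 0, ..., g (n-1)` are elements of `Γ` (generators, in the application),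
`γ 0, ..., γ (n'-1)` are elements of `Γ` killed by all `v i` (the meridians), and `B` is any set
of representations of `Γ` (the base representations).  A representation `ρ` of `Γ` in `SL_r(ℂ)`
is of the kind `IsTwistRep v N₀ B` if it is conjugate to `⊕_k χ_k ⊗ σ_k`, where `σ = ⊕_k σ_k`
is a representation in `B` with entries in the ring generated by `√2` and the `N₀`-th roots of
unity whose determinants have order dividing `N₀`, and every `χ_k` is a character of the form
`∏ i, (s i k) ^ (v i ·)`.

A polynomial `f` in the entries of `ρ (g 0), ..., ρ (g (n-1))` that is invariant under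
simultaneous conjugation and vanishes at every representation `ρ` of the kind
`IsTwistRep v N₀ B` with `(ρ (γ j))_j ∈ K` all of whose matrices `ρ x` have entries in the ring
generated by `√2` and the `(r! * N₀)`-th roots of unity, vanishes at every representation of the
kind `IsTwistRep v N₀ B` with `(ρ (γ j))_j ∈ K`.  Here `K` is an arbitrary set of tuples closed
under simultaneous conjugation. -/
theorem result {Γ : Type*} [Group Γ] (b n n' r N₀ : ℕ) (v : Fin b → Γ → ℤ)
    (hv : ∀ i x y, v i (x * y) = v i x + v i y)
    (hdual : ∃ h : Fin b → Γ, ∀ i j, v i (h j) = if i = j then 1 else 0)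
    (g : Fin n → Γ) (γ : Fin n' → Γ) (hγ : ∀ i j, v i (γ j) = 0)
    (B : Set (Γ →* Matrix (Fin r) (Fin r) ℂ))
    (K : Set (Fin n' → Matrix (Fin r) (Fin r) ℂ))
    (hK : ∀ P Q : Matrix (Fin r) (Fin r) ℂ, P * Q = 1 → ∀ T ∈ K, (fun j => P * T j * Q) ∈ K)
    (f : MvPolynomial (Fin n × Fin r × Fin r) ℂ) (hf : ConjInvariant f)
    (hvan : ∀ ρ : Γ →* Matrix (Fin r) (Fin r) ℂ, IsTwistRep v N₀ B ρ → (fun j => ρ (γ j)) ∈ K →
      (∀ x a a', IsInt (r.factorial * N₀) (ρ x a a')) → evalAt (fun i => ρ (g i)) f = 0) :
    ∀ ρ : Γ →* Matrix (Fin r) (Fin r) ℂ, IsTwistRep v N₀ B ρ → (fun j => ρ (γ j)) ∈ K →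
      evalAt (fun i => ρ (g i)) f = 0 :=
  main b n n' r N₀ v hv hdual g γ hγ B K hK f hf hvan

end Vale.Agent.Results.P002.NilpotentPi1
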