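import Mathlib
import Vale.Agent.Helper2.CharProd

namespace Vale.Agent.Results.P002.ProductOfFreeGroups

open Vale.Agent.Helper2.CharVar Vale.Agent.Helper2.CharProd

/-- Integral points are Zariski dense in the `SL_r` character variety of the group
`Γ = F_(a 0) × ... × F_(a (s-1)) × ∏_j ℤ/(q j)` (a product of `s` free groups of ranks `a l`
and of `n` finite cyclic groups), in every rank `r`, also under an arbitrary
conjugation-invariant condition `K` on the tuple of images of the torsion generators.

A polynomial `f` in the entries of `(∑ a l) + n` matrices of size `r × r` that is invariant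
under simultaneous conjugation and vanishes at every representation `(A, B)` of `Γ` of the kind
`IsRepProd a q K` whose matrix entries all lie in the ring generated by `√2` and the `N`-th
roots of unity, `N = level r q = r! * ∏ q j`, vanishes at every complex representation of the
kind `IsRepProd a q K`.  The kind `IsRepProd a q K` (determinant one, `B j ^ q j = 1`, the tuple
`B` lies in `K`, generators of different factors commute, and up to one simultaneous conjugation
the space is a direct sum of tensor products on which the `l`-th free factor acts through the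
`l`-th tensor factor and the cyclic factors act by scalars) contains every semisimple
representation of `Γ` satisfying the condition `K`. -/
theorem result (s n r : ℕ) (a : Fin s → ℕ) (q : Fin n → ℕ) (hq : ∀ j, q j ≠ 0)
    (K : Set (Fin n → Matrix (Fin r) (Fin r) ℂ))
    (hK : ∀ P Q : Matrix (Fin r) (Fin r) ℂ, P * Q = 1 → ∀ T ∈ K, (fun j => P * T j * Q) ∈ K)
    (f : MvPolynomial ((((l : Fin s) × Fin (a l)) ⊕ Fin n) × Fin r × Fin r) ℂ)
    (hf : ConjInvariant f)
    (hvan : ∀ (A : (l : Fin s) → Fin (a l) → Matrix (Fin r) (Fin r) ℂ)
      (B : Fin n → Matrix (Fin r) (Fin r) ℂ), IsRepProd a q K A B →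
      (∀ l i x y, IsInt (level r q) (A l i x y)) → (∀ j x y, IsInt (level r q) (B j x y)) →
      evalAt (Sum.elim (fun p : (l : Fin s) × Fin (a l) => A p.1 p.2) B) f = 0) :
    ∀ (A : (l : Fin s) → Fin (a l) → Matrix (Fin r) (Fin r) ℂ)
      (B : Fin n → Matrix (Fin r) (Fin r) ℂ), IsRepProd a q K A B →
      evalAt (Sum.elim (fun p : (l : Fin s) × Fin (a l) => A p.1 p.2) B) f = 0 :=
  main s n r a q hq K hK f hf hvan

end Vale.Agent.Results.P002.ProductOfFreeGroups
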